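import Vale.Agent.P258.R2.H267.Conj

set_option linter.all false

namespace Vale.Agent.P258.Eleven

open Matrix

def memN (x : ℕ) (l : List ℕ) : Bool := l.any fun y => Nat.beq x y

/-- Facts on all elements. -/
def fact (a b c d : ℕ) : Bool :=
  force (cd a b c d) fun x =>
    !(Nat.beq (detN x) 1) ||
      (Nat.beq (p660 x) 4097 &&
        (Nat.beq (mulN x x) 4097 || memN x (cl (Nat.mod (Nat.add a d) 11))))

def facts : Bool :=
  dig.all fun a => dig.all fun b => dig.all fun c => dig.all fun d => fact a b c d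

theorem facts_true : facts = true := by decide +kernel

/-- Each element of `cl t` is conjugate to one of `orb t` by one of `cs t`. -/
def orbOK (t : ℕ) : Bool :=
  (cl t).all fun x => (cs t).any fun c =>
    (okD c && (!(Nat.beq (detN c) 0) && Nat.beq (mulN c (cmp t)) (mulN (cmp t) c))) &&
      (orb t).any fun z => okD z && Nat.beq (mulN c x) (mulN z c)

theorem orb_true : (dig.all fun t => orbOK t) = true := by decide +kernel

theorem mem_dig {n : ℕ} (h : n < 11) : n ∈ dig := by
  unfold dig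
  interval_cases n <;> simp

theorem all_dig {p : ℕ → Bool} (h : dig.all p = true) {n : ℕ} (hn : n < 11) : p n = true :=
  List.all_eq_true.1 h n (mem_dig hn)

theorem fact_of (A : G) : Nat.beq (p660 (code A)) 4097 = true ∧
    (Nat.beq (mulN (code A) (code A)) 4097 = true ∨ memN (code A) (cl (tr A.1).val) = true) := by
  have h := facts_true
  unfold facts at h
  have h2 := all_dig (all_dig (all_dig (all_dig h (lt11 (A.1 0 0))) (lt11 (A.1 0 1)))
    (lt11 (A.1 1 0))) (lt11 (A.1 1 1))
  unfold fact at h2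
  rw [force_eq] at h2
  have hc : cd (A.1 0 0).val (A.1 0 1).val (A.1 1 0).val (A.1 1 1).val = code A := rfl
  rw [hc] at h2
  have hdet : Nat.beq (detN (code A)) 1 = true := by
    unfold code
    rw [cM_det, A.2]
    rfl
  rw [hdet] at h2
  simp only [Bool.not_true, Bool.false_or, Bool.and_eq_true, Bool.or_eq_true] at h2
  refine ⟨h2.1, ?_⟩
  have ht : Nat.mod (Nat.add (A.1 0 0).val (A.1 1 1).val) 11 = (tr A.1).val := by
    unfold tr
    rw [ZMod.val_add]
    rfl
  rw [ht] at h2
  exact h2.2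

theorem memN_iff {x : ℕ} {l : List ℕ} (h : memN x l = true) : x ∈ l := by
  unfold memN at h
  rw [List.any_eq_true] at h
  obtain ⟨y, hy, e⟩ := h
  rw [Nat.eq_of_beq_eq_true e]
  exact hy

theorem mem_cl {A : G} (h : A * A ≠ 1) : code A ∈ cl (tr A.1).val := by
  rcases (fact_of A).2 with h2 | h2
  · exfalso
    apply h
    apply code_inj
    rw [code_mul, code_one]
    exact Nat.eq_of_beq_eq_true h2
  · exact memN_iff h2

theorem pow660 (A : G) : A ^ 660 = 1 := by
  apply code_inj
  rw [code_one]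
  have h := Nat.eq_of_beq_eq_true (fact_of A).1
  rw [← h]
  have e2 : A ^ 2 = A * A := pow_two A
  have e4 : A ^ 4 = A ^ 2 * A ^ 2 := by rw [← pow_add]
  have e5 : A ^ 5 = A ^ 4 * A := pow_succ A 4
  have e10 : A ^ 10 = A ^ 5 * A ^ 5 := by rw [← pow_add]
  have e20 : A ^ 20 = A ^ 10 * A ^ 10 := by rw [← pow_add]
  have e40 : A ^ 40 = A ^ 20 * A ^ 20 := by rw [← pow_add]
  have e80 : A ^ 80 = A ^ 40 * A ^ 40 := by rw [← pow_add]
  have e160 : A ^ 160 = A ^ 80 * A ^ 80 := by rw [← pow_add]
  have e320 : A ^ 320 = A ^ 160 * A ^ 160 := by rw [← pow_add]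
  have e640 : A ^ 640 = A ^ 320 * A ^ 320 := by rw [← pow_add]
  have e660 : A ^ 660 = A ^ 640 * A ^ 20 := by rw [← pow_add]
  unfold p660
  simp only [force_eq]
  rw [e660, code_mul, e640, code_mul, e320, code_mul, e160, code_mul, e80, code_mul, e40,
    code_mul, e20, code_mul, e10, code_mul, e5, code_mul, e4, code_mul, e2, code_mul]

/-- Normal form of an element up to conjugation by the matrices commuting with `C`. -/
theorem exists_orb {x : G} (h : x * x ≠ 1) : ∃ c z : M, c.det ≠ 0 ∧
    c * C (tr x.1) = C (tr x.1) * c ∧ c * x.1 = z * c ∧ cM z ∈ orb (tr x.1).val := by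
  have h1 := all_dig orb_true (lt11 (tr x.1))
  unfold orbOK at h1
  have h2 := List.all_eq_true.1 h1 (code x) (mem_cl h)
  rw [List.any_eq_true] at h2
  obtain ⟨c, _, hc⟩ := h2
  simp only [Bool.and_eq_true] at hc
  obtain ⟨⟨k1, k2, k3⟩, k4⟩ := hc
  rw [List.any_eq_true] at k4
  obtain ⟨z, hz, k5⟩ := k4
  simp only [Bool.and_eq_true] at k5
  obtain ⟨k5, k6⟩ := k5
  refine ⟨toM c, toM z, ?_, ?_, ?_, ?_⟩
  · intro h0
    have : detN c = 0 := by
      rw [← cM_toM k1, cM_det, h0]
      rfl
    rw [this] at k2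
    exact absurd k2 (by decide)
  · apply cM_inj
    rw [cM_mul, cM_mul, cM_toM k1, cM_C]
    exact Nat.eq_of_beq_eq_true k3
  · apply cM_inj
    rw [cM_mul, cM_mul, cM_toM k1, cM_toM k5]
    exact Nat.eq_of_beq_eq_true k6
  · rw [cM_toM k5]
    exact hz

end Vale.Agent.P258.Eleven
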