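import Vale.Agent.P258.R2.H267.Code

set_option linter.all false

namespace Vale.Agent.P258.Eleven

open Matrix

instance : Fact (Nat.Prime 11) := ⟨by norm_num⟩

theorem land15 (x : ℕ) : Nat.land x 15 = x % 16 := Nat.and_two_pow_sub_one_eq_mod x 4

theorem shr (x k : ℕ) : Nat.shiftRight x k = x / 2 ^ k := Nat.shiftRight_eq_div_pow x k

theorem cd_eq (a b c d : ℕ) : cd a b c d = a + 16 * b + (256 * c + 4096 * d) := rfl

theorem digits (a b c d : ℕ) (ha : a < 11) (hb : b < 11) (hc : c < 11) (hd : d < 11) :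
    Nat.land (cd a b c d) 15 = a ∧ Nat.land (Nat.shiftRight (cd a b c d) 4) 15 = b ∧
    Nat.land (Nat.shiftRight (cd a b c d) 8) 15 = c ∧ Nat.shiftRight (cd a b c d) 12 = d := by
  simp only [land15, shr, cd_eq]
  refine ⟨?_, ?_, ?_, ?_⟩ <;> omega

abbrev Z := ZMod 11
abbrev M := Matrix (Fin 2) (Fin 2) Z
/-- The group `SL(2, 11)`. -/
abbrev G := Matrix.SpecialLinearGroup (Fin 2) Z

/-- The code of a matrix. -/
def cM (A : M) : ℕ := cd (A 0 0).val (A 0 1).val (A 1 0).val (A 1 1).val

theorem lt11 (x : Z) : x.val < 11 := ZMod.val_lt x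

theorem cM_dig (A : M) : Nat.land (cM A) 15 = (A 0 0).val ∧
    Nat.land (Nat.shiftRight (cM A) 4) 15 = (A 0 1).val ∧
    Nat.land (Nat.shiftRight (cM A) 8) 15 = (A 1 0).val ∧
    Nat.shiftRight (cM A) 12 = (A 1 1).val :=
  digits _ _ _ _ (lt11 _) (lt11 _) (lt11 _) (lt11 _)

theorem cM_mul (A B : M) : cM (A * B) = mulN (cM A) (cM B) := by
  obtain ⟨h1, h2, h3, h4⟩ := cM_dig A
  obtain ⟨k1, k2, k3, k4⟩ := cM_dig B
  unfold mulN
  rw [h1, h2, h3, h4, k1, k2, k3, k4]
  unfold cM mulA
  simp only [Matrix.mul_apply, Fin.sum_univ_two, ZMod.val_add, ZMod.val_mul, ← Nat.add_mod]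
  rfl

theorem negN_eq (x : Z) : negN x.val = (-x).val := by
  rw [ZMod.neg_val']
  rfl

theorem cM_adj (A : M) : cM A.adjugate = invN (cM A) := by
  obtain ⟨h1, h2, h3, h4⟩ := cM_dig A
  unfold invN
  rw [h1, h2, h3, h4, negN_eq, negN_eq, Matrix.adjugate_fin_two]
  rfl

theorem cM_det (A : M) : detN (cM A) = A.det.val := by
  obtain ⟨h1, h2, h3, h4⟩ := cM_dig A
  unfold detN
  rw [h1, h2, h3, h4, negN_eq, Matrix.det_fin_two]
  have : A 0 0 * A 1 1 - A 0 1 * A 1 0 = A 0 0 * A 1 1 + A 0 1 * -A 1 0 := by ring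
  rw [this, ZMod.val_add, ZMod.val_mul, ZMod.val_mul, ← Nat.add_mod]
  rfl

theorem cM_inj {A B : M} (h : cM A = cM B) : A = B := by
  obtain ⟨h1, h2, h3, h4⟩ := cM_dig A
  obtain ⟨k1, k2, k3, k4⟩ := cM_dig B
  rw [h] at h1 h2 h3 h4
  ext i j
  fin_cases i <;> fin_cases j
  · exact ZMod.val_injective 11 (h1.symm.trans k1)
  · exact ZMod.val_injective 11 (h2.symm.trans k2)
  · exact ZMod.val_injective 11 (h3.symm.trans k3)
  · exact ZMod.val_injective 11 (h4.symm.trans k4)

/-- The code of an element of the group. -/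
def code (A : G) : ℕ := cM A.1

theorem code_mul (A B : G) : code (A * B) = mulN (code A) (code B) := cM_mul A.1 B.1

theorem code_inv (A : G) : code A⁻¹ = invN (code A) := by
  unfold code
  rw [Matrix.SpecialLinearGroup.coe_inv, cM_adj]

theorem code_one : code 1 = 4097 := by
  unfold code cM
  simp only [Matrix.SpecialLinearGroup.coe_one, Matrix.one_apply_eq]
  rfl

theorem code_inj {A B : G} (h : code A = code B) : A = B := Subtype.ext (cM_inj h)

theorem code_cj (x k : G) : code (k⁻¹ * x * k) = cjN (code x) (code k) := by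
  rw [code_mul, code_mul, code_inv]; rfl

theorem code_ci (x k : G) : code (k * x * k⁻¹) = ciN (code x) (code k) := by
  rw [code_mul, code_mul, code_inv]; rfl

/-- The matrix with a given code. -/
def toM (x : ℕ) : M :=
  !![((Nat.land x 15 : ℕ) : Z), ((Nat.land (Nat.shiftRight x 4) 15 : ℕ) : Z);
    ((Nat.land (Nat.shiftRight x 8) 15 : ℕ) : Z), ((Nat.shiftRight x 12 : ℕ) : Z)]

/-- The digits are below eleven. -/
def okD (x : ℕ) : Bool :=
  Nat.blt (Nat.land x 15) 11 && (Nat.blt (Nat.land (Nat.shiftRight x 4) 15) 11 &&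
    (Nat.blt (Nat.land (Nat.shiftRight x 8) 15) 11 && Nat.blt (Nat.shiftRight x 12) 11))

theorem blt_lt {a b : ℕ} (h : Nat.blt a b = true) : a < b := by
  simpa [Nat.blt] using h

theorem cM_toM {x : ℕ} (h : okD x = true) : cM (toM x) = x := by
  unfold okD at h
  simp only [Bool.and_eq_true] at h
  obtain ⟨h1, h2, h3, h4⟩ := h
  replace h1 := blt_lt h1
  replace h2 := blt_lt h2
  replace h3 := blt_lt h3
  replace h4 := blt_lt h4
  unfold cM toM
  simp only [Matrix.of_apply, Matrix.cons_val', Matrix.cons_val_zero, Matrix.cons_val_one,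
    Matrix.empty_val', Matrix.cons_val_fin_one]
  rw [ZMod.val_natCast_of_lt h1, ZMod.val_natCast_of_lt h2, ZMod.val_natCast_of_lt h3,
    ZMod.val_natCast_of_lt h4]
  simp only [land15, shr, cd_eq] at *
  omega

/-- The trace. -/
def tr (A : M) : Z := A 0 0 + A 1 1

theorem tr_eq (A : M) : tr A = A.trace := by rw [Matrix.trace_fin_two]; rfl

/-- The companion matrix. -/
def C (t : Z) : M := !![0, 1; -1, t]

theorem cM_C (t : Z) : cM (C t) = cmp t.val := by
  unfold cM C cmp
  simp only [Matrix.of_apply, Matrix.cons_val', Matrix.cons_val_zero, Matrix.cons_val_one,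
    Matrix.empty_val', Matrix.cons_val_fin_one]
  rfl

/-- The matrix conjugating a given one to the companion matrix. -/
def W (A : M) : M :=
  if A 0 1 = 0 then (if A 1 0 = 0 then !![1, 1; A 0 0, A 1 1] else !![0, 1; A 1 0, A 1 1])
  else !![1, 0; A 0 0, A 0 1]

theorem beq_zero_iff (x : Z) : Nat.beq x.val 0 = decide (x = 0) := by
  by_cases h : x = 0
  · rw [h]; rfl
  · rw [decide_eq_false h]
    apply Bool.eq_false_iff.2
    intro h2
    exact h ((ZMod.val_eq_zero x).1 (Nat.eq_of_beq_eq_true h2))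

theorem cM_W (A : M) : cM (W A) = wN (cM A) := by
  obtain ⟨h1, h2, h3, h4⟩ := cM_dig A
  unfold wN
  rw [h1, h2, h3, h4]
  unfold wA W
  rw [beq_zero_iff, beq_zero_iff]
  by_cases hb : A 0 1 = 0
  · by_cases hc : A 1 0 = 0
    · simp only [hb, hc, if_true, decide_true, cond_true]
      rfl
    · simp only [hb, hc, if_true, if_false, decide_true, decide_false, cond_true, cond_false]
      rfl
  · simp only [hb, if_false, decide_false, cond_false]
    rfl

theorem W_spec (A : G) (h : A * A ≠ 1) : W A.1 * A.1 = C (tr A.1) * W A.1 ∧ (W A.1).det ≠ 0 := by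
  have hd := A.2
  rw [Matrix.det_fin_two] at hd
  set a := A.1 0 0 with ha
  set b := A.1 0 1 with hb
  set c := A.1 1 0 with hc
  set d := A.1 1 1 with hd'
  have hA : A.1 = !![a, b; c, d] := Matrix.eta_fin_two A.1
  unfold W tr C
  rw [← ha, ← hb, ← hc, ← hd', hA]
  by_cases h1 : b = 0
  · by_cases h2 : c = 0
    · rw [if_pos h1, if_pos h2]
      refine ⟨?_, ?_⟩
      · rw [Matrix.mul_fin_two, Matrix.mul_fin_two]
        rw [h1, h2] at hd ⊢
        congr 1
        ext i j
        fin_cases i <;> fin_cases j <;> simp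
        · linear_combination -hd
        · linear_combination -hd
      · rw [Matrix.det_fin_two_of]
        intro h3
        apply h
        apply Subtype.ext
        have h4 : d = a := by linear_combination h3
        have h5 : a * a = 1 := by rw [h1, h2, h4] at hd; linear_combination hd
        change A.1 * A.1 = 1
        rw [hA, h1, h2, h4, Matrix.mul_fin_two, Matrix.one_fin_two]
        simp [h5]
    · rw [if_pos h1, if_neg h2]
      refine ⟨?_, ?_⟩
      · rw [Matrix.mul_fin_two, Matrix.mul_fin_two]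
        rw [h1] at hd ⊢
        congr 1
        ext i j
        fin_cases i <;> fin_cases j <;> simp
        · ring
        · linear_combination -hd
      · rw [Matrix.det_fin_two_of]
        simpa using h2
  · rw [if_neg h1]
    refine ⟨?_, ?_⟩
    · rw [Matrix.mul_fin_two, Matrix.mul_fin_two]
      congr 1
      ext i j
      fin_cases i <;> fin_cases j <;> simp
      · linear_combination -hd
      · ring
    · rw [Matrix.det_fin_two_of]
      simpa using h1

end Vale.Agent.P258.Eleven
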