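import Vale.Agent.P258.R2.H267.Sound
import Vale.Agent.P258.H331.Main
import Vale.Agent.P258.R2.H394.Spec

set_option linter.all false

namespace Vale.Agent.P258.Eleven

theorem patRel_of_isCol {H : Type} [Group H] (v : Fin 33 → H) (h : patternB.IsCol v) : PatRel v := by
  have g : ∀ a : Fin 33, v (Second.nextV a) = v (Second.aboveV a) ^ (-(Second.sgnV a : ℤ)) * v a *
      v (Second.aboveV a) ^ (Second.sgnV a : ℤ) := by
    intro a
    rw [← Second.nextV_eq, ← Second.aboveV_eq, ← Second.sgnV_eq]
    exact h a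
  constructor
  · have := g 0; simp [Second.nextV, Second.aboveV, Second.sgnV] at this; rw [this]; group
  · have := g 1; simp [Second.nextV, Second.aboveV, Second.sgnV] at this; rw [this]; group
  · have := g 2; simp [Second.nextV, Second.aboveV, Second.sgnV] at this; rw [this]; group
  · have := g 3; simp [Second.nextV, Second.aboveV, Second.sgnV] at this; exact this
  · have := g 4; simp [Second.nextV, Second.aboveV, Second.sgnV] at this; exact this
  · have := g 5; simp [Second.nextV, Second.aboveV, Second.sgnV] at this; exact this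
  · have := g 6; simp [Second.nextV, Second.aboveV, Second.sgnV] at this; exact this
  · have := g 7; simp [Second.nextV, Second.aboveV, Second.sgnV] at this; rw [this]; group
  · have := g 8; simp [Second.nextV, Second.aboveV, Second.sgnV] at this; exact this
  · have := g 9; simp [Second.nextV, Second.aboveV, Second.sgnV] at this; exact this
  · have := g 10; simp [Second.nextV, Second.aboveV, Second.sgnV] at this; exact this
  · have := g 11; simp [Second.nextV, Second.aboveV, Second.sgnV] at this; exact this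
  · have := g 12; simp [Second.nextV, Second.aboveV, Second.sgnV] at this; exact this
  · have := g 13; simp [Second.nextV, Second.aboveV, Second.sgnV] at this; exact this
  · have := g 14; simp [Second.nextV, Second.aboveV, Second.sgnV] at this; exact this
  · have := g 15; simp [Second.nextV, Second.aboveV, Second.sgnV] at this; exact this
  · have := g 16; simp [Second.nextV, Second.aboveV, Second.sgnV] at this; exact this
  · have := g 17; simp [Second.nextV, Second.aboveV, Second.sgnV] at this; exact this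
  · have := g 18; simp [Second.nextV, Second.aboveV, Second.sgnV] at this; exact this
  · have := g 19; simp [Second.nextV, Second.aboveV, Second.sgnV] at this; exact this
  · have := g 20; simp [Second.nextV, Second.aboveV, Second.sgnV] at this; exact this
  · have := g 21; simp [Second.nextV, Second.aboveV, Second.sgnV] at this; exact this
  · have := g 22; simp [Second.nextV, Second.aboveV, Second.sgnV] at this; exact this
  · have := g 23; simp [Second.nextV, Second.aboveV, Second.sgnV] at this; exact this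
  · have := g 24; simp [Second.nextV, Second.aboveV, Second.sgnV] at this; rw [this]; group
  · have := g 25; simp [Second.nextV, Second.aboveV, Second.sgnV] at this; rw [this]; group
  · have := g 26; simp [Second.nextV, Second.aboveV, Second.sgnV] at this; rw [this]; group
  · have := g 27; simp [Second.nextV, Second.aboveV, Second.sgnV] at this; exact this
  · have := g 28; simp [Second.nextV, Second.aboveV, Second.sgnV] at this; rw [this]; group
  · have := g 29; simp [Second.nextV, Second.aboveV, Second.sgnV] at this; rw [this]; group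
  · have := g 30; simp [Second.nextV, Second.aboveV, Second.sgnV] at this; exact this
  · have := g 31; simp [Second.nextV, Second.aboveV, Second.sgnV] at this; exact this
  · have := g 32; simp [Second.nextV, Second.aboveV, Second.sgnV] at this; rw [this]; group

theorem isCol_of_patRel {H : Type} [Group H] (v : Fin 33 → H) (h : PatRel v) : patternB.IsCol v := by
  have g : ∀ a : Fin 33, v (Second.nextV a) = v (Second.aboveV a) ^ (-(Second.sgnV a : ℤ)) * v a *
      v (Second.aboveV a) ^ (Second.sgnV a : ℤ) := by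
    intro a
    fin_cases a
    · have := h.f0; simp [Second.nextV, Second.aboveV, Second.sgnV]; rw [this]; group
    · have := h.f1; simp [Second.nextV, Second.aboveV, Second.sgnV]; rw [this]; group
    · have := h.f2; simp [Second.nextV, Second.aboveV, Second.sgnV]; rw [this]; group
    · simpa [Second.nextV, Second.aboveV, Second.sgnV] using h.f3
    · simpa [Second.nextV, Second.aboveV, Second.sgnV] using h.f4
    · simpa [Second.nextV, Second.aboveV, Second.sgnV] using h.f5
    · simpa [Second.nextV, Second.aboveV, Second.sgnV] using h.f6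
    · have := h.f7; simp [Second.nextV, Second.aboveV, Second.sgnV]; rw [this]; group
    · simpa [Second.nextV, Second.aboveV, Second.sgnV] using h.f8
    · simpa [Second.nextV, Second.aboveV, Second.sgnV] using h.f9
    · simpa [Second.nextV, Second.aboveV, Second.sgnV] using h.f10
    · simpa [Second.nextV, Second.aboveV, Second.sgnV] using h.f11
    · simpa [Second.nextV, Second.aboveV, Second.sgnV] using h.f12
    · simpa [Second.nextV, Second.aboveV, Second.sgnV] using h.f13
    · simpa [Second.nextV, Second.aboveV, Second.sgnV] using h.f14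
    · simpa [Second.nextV, Second.aboveV, Second.sgnV] using h.f15
    · simpa [Second.nextV, Second.aboveV, Second.sgnV] using h.f16
    · simpa [Second.nextV, Second.aboveV, Second.sgnV] using h.f17
    · simpa [Second.nextV, Second.aboveV, Second.sgnV] using h.f18
    · simpa [Second.nextV, Second.aboveV, Second.sgnV] using h.f19
    · simpa [Second.nextV, Second.aboveV, Second.sgnV] using h.f20
    · simpa [Second.nextV, Second.aboveV, Second.sgnV] using h.f21
    · simpa [Second.nextV, Second.aboveV, Second.sgnV] using h.f22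
    · simpa [Second.nextV, Second.aboveV, Second.sgnV] using h.f23
    · have := h.f24; simp [Second.nextV, Second.aboveV, Second.sgnV]; rw [this]; group
    · have := h.f25; simp [Second.nextV, Second.aboveV, Second.sgnV]; rw [this]; group
    · have := h.f26; simp [Second.nextV, Second.aboveV, Second.sgnV]; rw [this]; group
    · simpa [Second.nextV, Second.aboveV, Second.sgnV] using h.f27
    · have := h.f28; simp [Second.nextV, Second.aboveV, Second.sgnV]; rw [this]; group
    · have := h.f29; simp [Second.nextV, Second.aboveV, Second.sgnV]; rw [this]; group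
    · simpa [Second.nextV, Second.aboveV, Second.sgnV] using h.f30
    · simpa [Second.nextV, Second.aboveV, Second.sgnV] using h.f31
    · have := h.f32; simp [Second.nextV, Second.aboveV, Second.sgnV]; rw [this]; group
  intro a
  change Fin 33 at a
  have h1 := g a
  rw [← Second.nextV_eq a, ← Second.aboveV_eq a, ← Second.sgnV_eq a] at h1
  exact h1

theorem arc_term {H : Type} [Group H] (v : Fin 33 → H) (b : Fin 33) :
    v (patternB.above b) ^ ((patternB.sgn b : ℤˣ) : ℤ) = v (Second.aboveV b) ^ (Second.sgnV b : ℤ) := by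
  rw [Second.aboveV_eq, Second.sgnV_eq]

theorem lonVal_K {H : Type} [Group H] (v : Fin 33 → H) : patternB.lonVal v patternBK = lamB v := by
  have h : (fun b : Fin 33 => v (patternB.above b) ^ ((patternB.sgn b : ℤˣ) : ℤ)) =
      fun b => v (Second.aboveV b) ^ (Second.sgnV b : ℤ) := funext (arc_term v)
  have h1 : (List.map (fun b : Fin 33 => v (patternB.above b) ^ ((patternB.sgn b : ℤˣ) : ℤ))
      [0, 1, 2, 3, 4, 5, 6, 7, 8, 9, 10, 11, 12, 13, 14, 15, 16, 17, 18, 19, 20, 21, 22, 23, 24,
        25, 26, 27, 28, 29, 30]).prod =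
      v 26 ^ (-1 : ℤ) * (v 25 ^ (-1 : ℤ) * (v 31 ^ (-1 : ℤ) * (v 11 ^ (1 : ℤ) * (v 10 ^ (1 : ℤ) *
        (v 9 ^ (1 : ℤ) * (v 8 ^ (1 : ℤ) * (v 29 ^ (-1 : ℤ) * (v 6 ^ (1 : ℤ) * (v 5 ^ (1 : ℤ) * (v
        4 ^ (1 : ℤ) * (v 3 ^ (1 : ℤ) * (v 22 ^ (1 : ℤ) * (v 21 ^ (1 : ℤ) * (v 20 ^ (1 : ℤ) * (v 19
        ^ (1 : ℤ) * (v 18 ^ (1 : ℤ) * (v 0 ^ (1 : ℤ) * (v 16 ^ (1 : ℤ) * (v 15 ^ (1 : ℤ) * (v 14 ^
        (1 : ℤ) * (v 13 ^ (1 : ℤ) * (v 12 ^ (1 : ℤ) * (v 31 ^ (1 : ℤ) * (v 2 ^ (-1 : ℤ) * (v 1 ^
        (-1 : ℤ) * (v 0 ^ (-1 : ℤ) * (v 7 ^ (1 : ℤ) * (v 8 ^ (-1 : ℤ) * (v 7 ^ (-1 : ℤ) * (v 17 ^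
        (1 : ℤ) * (1))))))))))))))))))))))))))))))) := by
    rw [h]
    rfl
  have h3 := lonVal_eq (D := patternB) v patternBK _ _ _ Second.walk_K Second.writhe_K h1
  have h2 : v patternBK = v 0 := rfl
  rw [h2] at h3
  rw [h3]
  simp only [lamB, zpow_one, zpow_neg_one, mul_one, mul_assoc]

theorem lonVal_E {H : Type} [Group H] (v : Fin 33 → H) : patternB.lonVal v patternBE = v 24 * (v 2)⁻¹ := by
  have h : (fun b : Fin 33 => v (patternB.above b) ^ ((patternB.sgn b : ℤˣ) : ℤ)) =
      fun b => v (Second.aboveV b) ^ (Second.sgnV b : ℤ) := funext (arc_term v)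
  have h1 : (List.map (fun b : Fin 33 => v (patternB.above b) ^ ((patternB.sgn b : ℤˣ) : ℤ))
      [31, 32]).prod = v 24 ^ (1 : ℤ) * (v 2 ^ (-1 : ℤ) * (1)) := by
    rw [h]
    rfl
  have h3 := lonVal_eq (D := patternB) v patternBE _ _ _ Second.walk_E Second.writhe_E h1
  rw [h3]
  simp only [zpow_one, zpow_neg_one, mul_one, neg_zero, zpow_zero]

theorem sq_next (D : Diagram) (ρ : Fin D.n → G) (h : D.IsCol ρ) (a : Fin D.n) :
    ρ (D.next a) * ρ (D.next a) = 1 ↔ ρ a * ρ a = 1 := by
  rw [h a]
  set k := ρ (D.above a) ^ (D.sgn a : ℤ) with hk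
  have hk' : ρ (D.above a) ^ (-(D.sgn a : ℤ)) = k⁻¹ := by rw [hk, zpow_neg]
  rw [hk']
  constructor
  · intro h1
    calc ρ a * ρ a = k * (k⁻¹ * ρ a * k * (k⁻¹ * ρ a * k)) * k⁻¹ := by group
      _ = 1 := by rw [h1]; group
  · intro h1
    calc k⁻¹ * ρ a * k * (k⁻¹ * ρ a * k) = k⁻¹ * (ρ a * ρ a) * k := by group
      _ = 1 := by rw [h1]; group

theorem sq_same (D : Diagram) (ρ : Fin D.n → G) (h : D.IsCol ρ) {a b : Fin D.n}
    (hab : D.SameComponent a b) : ρ b * ρ b = 1 ↔ ρ a * ρ a = 1 := by
  obtain ⟨i, rfl⟩ := hab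
  induction i with
  | zero => rfl
  | succ i ih => rw [Function.iterate_succ_apply', sq_next D ρ h, ih]

theorem tr_next (D : Diagram) (ρ : Fin D.n → G) (h : D.IsCol ρ) (a : Fin D.n) :
    tr (ρ (D.next a)).1 = tr (ρ a).1 := by
  rw [h a]
  have hk' : ρ (D.above a) ^ (-(D.sgn a : ℤ)) = (ρ (D.above a) ^ (D.sgn a : ℤ))⁻¹ := by
    rw [zpow_neg]
  rw [hk', tr_conj]

theorem tr_same (D : Diagram) (ρ : Fin D.n → G) (h : D.IsCol ρ) {a b : Fin D.n}
    (hab : D.SameComponent a b) : tr (ρ b).1 = tr (ρ a).1 := by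
  obtain ⟨i, rfl⟩ := hab
  induction i with
  | zero => rfl
  | succ i ih => rw [Function.iterate_succ_apply', tr_next D ρ h, ih]

theorem cj_sq (φ : G →* G) (hφ : Function.Injective φ) (y : G) (h : φ y * φ y = 1) :
    y * y = 1 := by
  apply hφ
  rw [map_mul, h, map_one]

theorem norm_one (x : G) (hx : x * x ≠ 1) : ∃ φ : G →* G, Function.Injective φ ∧
    (φ x).1 = C (tr x.1) ∧ ∀ y, tr (φ y).1 = tr y.1 := by
  obtain ⟨e1, d1⟩ := W_spec x hx
  exact ⟨cjHom (W x.1) d1, cjHom_inj (W x.1) d1, cjHom_eq (W x.1) d1 x (C (tr x.1)) e1,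
    fun y => tr_cjHom (W x.1) d1 y⟩

theorem norm_two (x y : G) (hx : x * x ≠ 1) (hy : y * y ≠ 1) (ht : tr y.1 = tr x.1) :
    ∃ φ : G →* G, Function.Injective φ ∧ code (φ x) = cmp (tr x.1).val ∧
      code (φ y) ∈ orb (tr x.1).val ∧ tr (φ x).1 = tr x.1 := by
  obtain ⟨ψ, i1, e1, f1⟩ := norm_one x hx
  have hs : ψ y * ψ y ≠ 1 := fun h1 => hy (cj_sq ψ i1 y h1)
  have ht2 : tr (ψ y).1 = tr x.1 := (f1 y).trans ht
  obtain ⟨c, z, d2, hcC, hcz, horb⟩ := exists_orb hs
  rw [ht2] at hcC horb
  have hcC' : c * (ψ x).1 = C (tr x.1) * c := by rw [e1]; exact hcC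
  have h2 : (cjHom c d2 (ψ x)).1 = C (tr x.1) := cjHom_eq c d2 (ψ x) (C (tr x.1)) hcC'
  have h3 : (cjHom c d2 (ψ y)).1 = z := cjHom_eq c d2 (ψ y) z hcz
  refine ⟨(cjHom c d2).comp ψ, (cjHom_inj c d2).comp i1, ?_, ?_, ?_⟩
  · exact (congrArg cM h2).trans (cM_C (tr x.1))
  · have h4 : code ((cjHom c d2).comp ψ y) = cM z := congrArg cM h3
    rw [h4]
    exact horb
  · exact (tr_cjHom c d2 (ψ x)).trans (f1 x)

theorem col_cond (ρ : Fin 33 → G) (φ : G →* G) (hφ : Function.Injective φ) (v : Fin 33 → G)
    (hv : v = fun a => φ (ρ a))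
    (hE : patternB.lonVal ρ patternBE = 1 → ρ 31 = 1)
    (hl : ρ 0 * ρ 0 = patternB.lonVal ρ patternBK) :
    (v 24 * (v 2)⁻¹ = 1 → v 31 = 1) ∧ v 0 * v 0 = lamB v := by
  have e3 : patternB.lonVal v patternBE = φ (patternB.lonVal ρ patternBE) := by
    rw [hv]
    exact Diagram.lonVal_map patternB ρ φ patternBE
  have k3 : patternB.lonVal v patternBK = φ (patternB.lonVal ρ patternBK) := by
    rw [hv]
    exact Diagram.lonVal_map patternB ρ φ patternBK
  have v31 : v 31 = φ (ρ 31) := by rw [hv]
  have v0 : v 0 = φ (ρ 0) := by rw [hv]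
  constructor
  · intro h1
    have h2 : patternB.lonVal v patternBE = 1 := (lonVal_E v).trans h1
    have h4 : patternB.lonVal ρ patternBE = 1 :=
      hφ ((e3.symm.trans h2).trans (map_one φ).symm)
    rw [v31, hE h4, map_one]
  · have h5 : v 0 * v 0 = φ (ρ 0 * ρ 0) := by rw [v0, map_mul]
    exact h5.trans ((congrArg φ hl).trans (k3.symm.trans (lonVal_K v)))

theorem key_aux (v : Fin 33 → G) (hv : patternB.IsCol v) (t : Z)
    (hsv : ∀ b : Fin 33, b.val < 31 → v b * v b ≠ 1) (ht : tr (v 7).1 = t)
    (h7 : code (v 7) = cmp t.val) (h29 : code (v 29) ∈ orb t.val)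
    (hE : v 24 * (v 2)⁻¹ = 1 → v 31 = 1) : v 0 * v 0 ≠ lamB v := by
  have htv : ∀ b : Fin 33, b.val < 31 → tr (v b).1 = t := by
    intro b hb
    have h1 := tr_same patternB v hv ((Second.comp_K b).2 hb)
    have h2 := tr_same patternB v hv ((Second.comp_K 7).2 (by decide))
    exact h1.trans (h2.symm.trans ht)
  have hP : PatRel v := patRel_of_isCol v hv
  have h23 : code (v 23) ∈ cl t.val := by
    have := mem_cl (hsv 23 (by decide))
    rwa [htv 23 (by decide)] at this
  have hc : ∃ α β : Z, code (v 31) =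
      mulN (mulN (invN (wN (code (v 23)))) (cen t.val α.val β.val)) (wN (code (v 24))) := by
    have := transporter (g := v 23) (h := v 24) (y := v 31) (hsv 23 (by decide))
      (hsv 24 (by decide)) hP.f23
    rwa [htv 23 (by decide)] at this
  exact sound v hP hE t.val h7 h29 h23 hc (all_dig check (lt11 t))

theorem keyR (ρ : Fin 33 → G) (h : patternB.IsCol ρ)
    (hE : patternB.lonVal ρ patternBE = 1 → ρ 31 = 1)
    (hl : ρ 0 * ρ 0 = patternB.lonVal ρ patternBK) : ρ 0 * ρ 0 = 1 := by
  by_contra hne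
  have hsq : ∀ b : Fin 33, b.val < 31 → ρ b * ρ b ≠ 1 := fun b hb h1 =>
    hne ((sq_same patternB ρ h ((Second.comp_K b).2 hb)).1 h1)
  have ht : tr (ρ 29).1 = tr (ρ 7).1 :=
    (tr_same patternB ρ h ((Second.comp_K 29).2 (by decide))).trans
      (tr_same patternB ρ h ((Second.comp_K 7).2 (by decide))).symm
  obtain ⟨φ, hφ, h7, h29, ht7⟩ := norm_two (ρ 7) (ρ 29) (hsq 7 (by decide))
    (hsq 29 (by decide)) ht
  obtain ⟨c1, c2⟩ := col_cond ρ φ hφ (fun a => φ (ρ a)) rfl hE hl
  have hv : patternB.IsCol (fun a => φ (ρ a)) := Diagram.IsCol.map patternB h φ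
  exact key_aux (fun a => φ (ρ a)) hv (tr (ρ 7).1)
    (fun b hb h1 => hsq b hb (cj_sq φ hφ (ρ b) h1)) ht7 h7 h29 c1 c2

/-- The element with a given code. -/
def toG (x : ℕ) : G :=
  if h : (toM x).det = 1 then (⟨toM x, h⟩ : G) else 1

/-- A colouring of the second pattern with `μ ^ 2 * λ = 1`, `μ ^ 2 ≠ 1`. -/
def baseL : List ℕ :=
  [18064, 10882, 884, 4387, 42661, 32887, 25929, 18960, 4387, 14161, 21130, 30728,
    37686, 13409, 37686, 13409, 37686, 13409, 1156, 28760, 1156, 28760, 1156, 28760,
    25257, 35079, 42261, 4387, 2404, 14161, 25929, 10592, 42147]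

def baseCol (i : Fin 33) : G := toG (baseL.getD i.val 0)

theorem code_toG {x : ℕ} (h1 : okD x = true) (h2 : Nat.beq (detN x) 1 = true) :
    code (toG x) = x := by
  have h3 : (toM x).det = 1 := by
    apply ZMod.val_injective 11
    rw [← cM_det, cM_toM h1, Nat.eq_of_beq_eq_true h2]
    rfl
  have h4 : toG x = (⟨toM x, h3⟩ : G) := dif_pos h3
  rw [h4]
  exact cM_toM h1

theorem base_ok : ∀ i : Fin 33, (okD (baseL.getD i.val 0) &&
    Nat.beq (detN (baseL.getD i.val 0)) 1) = true := by decide +kernel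

theorem code_base (i : Fin 33) : code (baseCol i) = baseL.getD i.val 0 := by
  have h := base_ok i
  rw [Bool.and_eq_true] at h
  exact code_toG h.1 h.2

theorem cj_of (a b k : Fin 33) (h : Nat.beq (baseL.getD b.val 0)
    (cjN (baseL.getD a.val 0) (baseL.getD k.val 0)) = true) :
    baseCol b = (baseCol k)⁻¹ * baseCol a * baseCol k := by
  apply code_inj
  rw [code_cj, code_base, code_base, code_base]
  exact Nat.eq_of_beq_eq_true h

theorem baseCol_rel : PatRel baseCol where
  f0 := cj_of 1 0 26 (by decide +kernel)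
  f1 := cj_of 2 1 25 (by decide +kernel)
  f2 := cj_of 3 2 31 (by decide +kernel)
  f3 := cj_of 3 4 11 (by decide +kernel)
  f4 := cj_of 4 5 10 (by decide +kernel)
  f5 := cj_of 5 6 9 (by decide +kernel)
  f6 := cj_of 6 7 8 (by decide +kernel)
  f7 := cj_of 8 7 29 (by decide +kernel)
  f8 := cj_of 8 9 6 (by decide +kernel)
  f9 := cj_of 9 10 5 (by decide +kernel)
  f10 := cj_of 10 11 4 (by decide +kernel)
  f11 := cj_of 11 12 3 (by decide +kernel)
  f12 := cj_of 12 13 22 (by decide +kernel)
  f13 := cj_of 13 14 21 (by decide +kernel)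
  f14 := cj_of 14 15 20 (by decide +kernel)
  f15 := cj_of 15 16 19 (by decide +kernel)
  f16 := cj_of 16 17 18 (by decide +kernel)
  f17 := cj_of 17 18 0 (by decide +kernel)
  f18 := cj_of 18 19 16 (by decide +kernel)
  f19 := cj_of 19 20 15 (by decide +kernel)
  f20 := cj_of 20 21 14 (by decide +kernel)
  f21 := cj_of 21 22 13 (by decide +kernel)
  f22 := cj_of 22 23 12 (by decide +kernel)
  f23 := cj_of 23 24 31 (by decide +kernel)
  f24 := cj_of 25 24 2 (by decide +kernel)
  f25 := cj_of 26 25 1 (by decide +kernel)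
  f26 := cj_of 27 26 0 (by decide +kernel)
  f27 := cj_of 27 28 7 (by decide +kernel)
  f28 := cj_of 29 28 8 (by decide +kernel)
  f29 := cj_of 30 29 7 (by decide +kernel)
  f30 := cj_of 30 0 17 (by decide +kernel)
  f31 := cj_of 31 32 24 (by decide +kernel)
  f32 := cj_of 31 32 2 (by decide +kernel)

theorem baseCol_isCol : patternB.IsCol baseCol := isCol_of_patRel _ baseCol_rel

theorem baseCol_K : baseCol 0 * baseCol 0 * patternB.lonVal baseCol patternBK = 1 := by
  rw [lonVal_K]
  apply code_inj
  unfold lamB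
  rw [code_mul, code_mul (_ : G) (baseCol 0 ^ (-(13 : ℤ))), code_inv13]
  simp only [code_mul, code_inv, code_one, code_base]
  decide +kernel

theorem baseCol_sq : baseCol 0 * baseCol 0 ≠ 1 := by
  intro h
  have := congrArg code h
  rw [code_mul, code_one, code_base] at this
  revert this
  decide +kernel

theorem baseCol_E11 : (patternB.lonVal baseCol patternBE) ^ (11 : ℕ) = 1 := by
  rw [lonVal_E]
  apply code_inj
  simp only [pow_succ, pow_zero, one_mul, code_mul, code_inv, code_one, code_base]
  decide +kernel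

theorem baseCol_E5 : baseCol 31 = (patternB.lonVal baseCol patternBE) ^ (5 : ℕ) := by
  rw [lonVal_E]
  apply code_inj
  simp only [pow_succ, pow_zero, one_mul, code_mul, code_inv, code_one, code_base]
  decide +kernel

theorem zpow_mod_eleven {H : Type*} [Group H] (x : H) (hx : x ^ (11 : ℕ) = 1) (f : ℤ)
    (hf : f % 11 = 5) : x ^ f = x ^ (5 : ℕ) := by
  obtain ⟨q, hq⟩ : ∃ q, f = 11 * q + 5 := ⟨f / 11, by omega⟩
  have h11 : x ^ (11 : ℤ) = 1 := by exact_mod_cast hx
  rw [hq, zpow_add, zpow_mul, h11, one_zpow, one_mul]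
  exact_mod_cast rfl

theorem separates (f : ℤ) (hf : f % 11 = 5) :
    Separates (Matrix.SpecialLinearGroup (Fin 2) (ZMod 11)) patternB patternBK patternBE f := by
  refine ⟨?_, baseCol, ?_, ?_, ?_, ?_⟩
  · intro ρ h1 h2 h3
    have hcol : patternB.IsCol ρ := fun a => (patternB.lift_wirtinger ρ a).1 (h1 a)
    have e1 : lon patternB ρ patternBE = patternB.lonVal ρ patternBE :=
      patternB.lift_longitude ρ patternBE
    have e2 : lon patternB ρ patternBK = patternB.lonVal ρ patternBK :=
      patternB.lift_longitude ρ patternBK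
    rw [e1] at h2
    rw [e2, pow_two] at h3
    have h4 := keyR ρ hcol h2 h3.symm
    rw [pow_two]
    exact h4
  · exact fun a => (patternB.lift_wirtinger baseCol a).2 (baseCol_isCol a)
  · rw [show lon patternB baseCol patternBK = patternB.lonVal baseCol patternBK from
      patternB.lift_longitude baseCol patternBK, pow_two]
    exact baseCol_K
  · rw [pow_two]
    exact baseCol_sq
  · rw [show lon patternB baseCol patternBE = patternB.lonVal baseCol patternBE from
      patternB.lift_longitude baseCol patternBE,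
      zpow_mod_eleven _ baseCol_E11 f hf]
    exact baseCol_E5

end Vale.Agent.P258.Eleven

namespace Vale.Agent.P258

/-- Row R11. -/
theorem rowR11 : RowR11 := ⟨Eleven.separates, Eleven.pow660⟩

end Vale.Agent.P258
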